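import Mathlib

/-!
# P208: doubling subsets of `ℝ × U`, `U` ultrametric, embed into a bounded-dimensional Euclidean space.

Proof idea.  Fix a scale `r`.  Two points of `X` are in the same class when they lie in one closed
`U`-ball of radius `r` and the shadow of that ball in `ℝ` has no gap of size more than `r` between
their first coordinates.  Classes at scale `r` are interval-like, so the graph of conflicts between
classes (close in `ℝ`, sibling in `U`) has a perfect elimination order (largest left end first) and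
the doubling condition bounds its cliques.  This gives a colouring with boundedly many colours at
every scale and no transitions at all.  The map is `x ↦ (x.1, ∑ⱼ 4^j e(χⱼ x))`.
-/

namespace Vale.Agent.Results.P208.LineTimesUltrametric

open Metric

variable {M : Type*} [PseudoMetricSpace M]

/-- The doubling condition with constant at most `lam`: every ball of `X` (centre in `X`) is covered
by at most `lam` balls of half the radius with centres in `X`. -/
def IsDoublingSet (X : Set M) (lam : ℕ) : Prop :=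
  ∀ x ∈ X, ∀ r : ℝ, 0 < r → ∃ C : Finset M, (↑C : Set M) ⊆ X ∧ C.card ≤ lam ∧
    X ∩ ball x r ⊆ ⋃ c ∈ C, ball c (r / 2)

/-- Counting: an `r`-separated finite subset of a ball of radius `2^n * (r/2)` of `X` has at most
`lam^n` points. -/
lemma card_le_of_separated {X : Set M} {lam : ℕ} (hX : IsDoublingSet X lam) {r : ℝ} (hr : 0 < r)
    (n : ℕ) : ∀ (x : M), x ∈ X → ∀ S : Finset M, (↑S : Set M) ⊆ X →
      (↑S : Set M) ⊆ ball x (2 ^ n * (r / 2)) →
      (∀ a ∈ S, ∀ b ∈ S, a ≠ b → r < dist a b) → S.card ≤ lam ^ n := by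
  induction n with
  | zero =>
    intro x _ S _ hSb hsep
    simp only [pow_zero, one_mul] at hSb ⊢
    rw [Finset.card_le_one]
    intro a ha b hb
    by_contra hab
    have h1 := hsep a ha b hb hab
    have h2 : dist a x < r / 2 := hSb ha
    have h3 : dist b x < r / 2 := hSb hb
    have h4 := dist_triangle_right a b x
    linarith
  | succ n ih =>
    intro x hx S hSX hSb hsep
    have hpos : (0 : ℝ) < 2 ^ (n + 1) * (r / 2) := by positivity
    obtain ⟨C, hCX, hCc, hcov⟩ := hX x hx _ hpos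
    classical
    have hS : S ⊆ C.biUnion (fun c => S.filter (fun a => a ∈ ball c (2 ^ n * (r / 2)))) := by
      intro a ha
      have h1 : a ∈ X ∩ ball x (2 ^ (n + 1) * (r / 2)) := ⟨hSX ha, hSb ha⟩
      have h2 := hcov h1
      simp only [Set.mem_iUnion] at h2
      obtain ⟨c, hc, hac⟩ := h2
      rw [Finset.mem_biUnion]
      refine ⟨c, hc, ?_⟩
      rw [Finset.mem_filter]
      refine ⟨ha, ?_⟩
      have : (2 : ℝ) ^ (n + 1) * (r / 2) / 2 = 2 ^ n * (r / 2) := by ring
      rw [this] at hac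
      exact hac
    calc S.card ≤ (C.biUnion (fun c => S.filter (fun a => a ∈ ball c (2 ^ n * (r / 2))))).card :=
          Finset.card_le_card hS
      _ ≤ ∑ c ∈ C, (S.filter (fun a => a ∈ ball c (2 ^ n * (r / 2)))).card :=
          Finset.card_biUnion_le
      _ ≤ ∑ _c ∈ C, lam ^ n := by
          apply Finset.sum_le_sum
          intro c hc
          apply ih c (hCX hc)
          · intro a ha
            exact hSX (Finset.mem_of_mem_filter a ha)
          · intro a ha
            have := (Finset.mem_filter.mp (Finset.mem_coe.mp ha)).2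
            exact this
          · intro a ha b hb hab
            exact hsep a (Finset.mem_of_mem_filter a ha) b (Finset.mem_of_mem_filter b hb) hab
      _ = C.card * lam ^ n := by simp
      _ ≤ lam * lam ^ n := Nat.mul_le_mul_right _ hCc
      _ = lam ^ (n + 1) := by ring

variable {U : Type*} [MetricSpace U] [IsUltrametricDist U]

lemma ultra (a b c : U) {r : ℝ} (h1 : dist a b ≤ r) (h2 : dist b c ≤ r) : dist a c ≤ r :=
  (IsUltrametricDist.dist_triangle_max a b c).trans (max_le h1 h2)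

/-- Same class at scale `r`. -/
def SameClass (X : Set (ℝ × U)) (r : ℝ) (x y : ℝ × U) : Prop :=
  dist x.2 y.2 ≤ r ∧ ∀ t ∈ Set.uIcc x.1 y.1, ∃ z ∈ X, dist z.2 x.2 ≤ r ∧ |z.1 - t| ≤ r

/-- Conflict at scale `r`. -/
def Conflict (r : ℝ) (x y : ℝ × U) : Prop :=
  r < dist x.2 y.2 ∧ dist x.2 y.2 ≤ 4 * r ∧ |x.1 - y.1| ≤ r

lemma Conflict.symm {r : ℝ} {x y : ℝ × U} (h : Conflict r x y) : Conflict r y x := by
  refine ⟨by rw [dist_comm]; exact h.1, by rw [dist_comm]; exact h.2.1, by rw [abs_sub_comm]; exact h.2.2⟩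

lemma abs_sub_le_of_mem_uIcc {a b t : ℝ} (ht : t ∈ Set.uIcc a b) : |a - t| ≤ |a - b| := by
  rcases Set.mem_uIcc.mp ht with h | h
  · rw [abs_of_nonpos (by linarith), abs_of_nonpos (by linarith)]; linarith
  · rw [abs_of_nonneg (by linarith), abs_of_nonneg (by linarith)]; linarith

lemma SameClass.of_close {X : Set (ℝ × U)} {r : ℝ} {x y : ℝ × U} (hx : x ∈ X)
    (h1 : dist x.2 y.2 ≤ r) (h2 : |x.1 - y.1| ≤ r) (hr : 0 ≤ r) : SameClass X r x y := by
  refine ⟨h1, fun t ht => ⟨x, hx, by simpa using hr, ?_⟩⟩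
  exact (abs_sub_le_of_mem_uIcc ht).trans h2

lemma SameClass.refl {X : Set (ℝ × U)} {r : ℝ} {x : ℝ × U} (hx : x ∈ X) (hr : 0 ≤ r) :
    SameClass X r x x :=
  SameClass.of_close hx (by simpa using hr) (by simpa using hr) hr

lemma SameClass.symm {X : Set (ℝ × U)} {r : ℝ} {x y : ℝ × U} (h : SameClass X r x y) :
    SameClass X r y x := by
  refine ⟨by rw [dist_comm]; exact h.1, fun t ht => ?_⟩
  obtain ⟨z, hz, h1, h2⟩ := h.2 t (by rwa [Set.uIcc_comm])
  exact ⟨z, hz, ultra z.2 x.2 y.2 h1 h.1, h2⟩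

lemma SameClass.trans {X : Set (ℝ × U)} {r : ℝ} {x y w : ℝ × U} (h : SameClass X r x y)
    (h' : SameClass X r y w) : SameClass X r x w := by
  refine ⟨ultra x.2 y.2 w.2 h.1 h'.1, fun t ht => ?_⟩
  rcases Set.uIcc_subset_uIcc_union_uIcc ht with ht | ht
  · exact h.2 t ht
  · obtain ⟨z, hz, h1, h2⟩ := h'.2 t ht
    exact ⟨z, hz, ultra z.2 y.2 x.2 h1 (by rw [dist_comm]; exact h.1), h2⟩

lemma SameClass.separated {X : Set (ℝ × U)} {r : ℝ} {x y : ℝ × U} (hx : x ∈ X) (hr : 0 ≤ r)
    (h : ¬ SameClass X r x y) : r < dist x y := by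
  rw [Prod.dist_eq]
  by_cases h1 : dist x.2 y.2 ≤ r
  · have h2 : ¬ ∀ t ∈ Set.uIcc x.1 y.1, ∃ z ∈ X, dist z.2 x.2 ≤ r ∧ |z.1 - t| ≤ r :=
      fun h3 => h ⟨h1, h3⟩
    push Not at h2
    obtain ⟨t, ht, h3⟩ := h2
    have h4 := h3 x hx (by simpa using hr)
    have h5 := abs_sub_le_of_mem_uIcc ht
    apply lt_max_of_lt_left
    rw [Real.dist_eq]
    linarith
  · exact lt_max_of_lt_right (not_le.mp h1)

/-- Convexity of classes: a point between two members of a class is close to a member. -/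
lemma SameClass.hull {X : Set (ℝ × U)} {r : ℝ} {x y : ℝ × U} (h : SameClass X r x y)
    {t : ℝ} (ht : t ∈ Set.uIcc x.1 y.1) : ∃ a ∈ X, SameClass X r a x ∧ |a.1 - t| ≤ r := by
  obtain ⟨z, hz, h1, h2⟩ := h.2 t ht
  have hr : 0 ≤ r := dist_nonneg.trans h1
  refine ⟨z, hz, ⟨h1, fun s hs => ?_⟩, h2⟩
  rcases Set.uIcc_subset_uIcc_union_uIcc (b := t) hs with hs | hs
  · exact ⟨z, hz, by simpa using hr, (abs_sub_le_of_mem_uIcc hs).trans h2⟩
  · have hs' : s ∈ Set.uIcc x.1 y.1 := by
      rw [Set.uIcc_comm t] at hs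
      exact Set.uIcc_subset_uIcc_left ht hs
    obtain ⟨w, hw, h3, h4⟩ := h.2 s hs'
    exact ⟨w, hw, ultra w.2 x.2 z.2 h3 (by rw [dist_comm]; exact h1), h4⟩

/-- Colouring of a finite part of `X` at one scale: greedy along the left ends of the classes. -/
lemma finite_colouring {X : Set (ℝ × U)} {lam : ℕ} (hX : IsDoublingSet X lam) {r : ℝ} (hr : 0 < r)
    (n : ℕ) : ∀ F : Finset (ℝ × U), F.card = n → (↑F : Set (ℝ × U)) ⊆ X →
      ∃ χ : ℝ × U → Fin (lam ^ 4 + 1), (∀ x ∈ F, ∀ y ∈ F, SameClass X r x y → χ x = χ y) ∧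
        (∀ x ∈ F, ∀ y ∈ F, Conflict r x y → χ x ≠ χ y) := by
  classical
  induction n using Nat.strong_induction_on with
  | _ n ih =>
  intro F hF hFX
  rcases F.eq_empty_or_nonempty with rfl | hne
  · exact ⟨fun _ => 0, by simp, by simp⟩
  -- the left end of each class
  have hm : ∀ x ∈ F, ∃ m ∈ F, SameClass X r m x ∧ ∀ y ∈ F, SameClass X r y x → m.1 ≤ y.1 := by
    intro x hx
    have hc : (F.filter (fun y => SameClass X r y x)).Nonempty :=
      ⟨x, Finset.mem_filter.mpr ⟨hx, SameClass.refl (hFX hx) hr.le⟩⟩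
    obtain ⟨m, hm, hmin⟩ := Finset.exists_min_image _ Prod.fst hc
    rw [Finset.mem_filter] at hm
    refine ⟨m, hm.1, hm.2, fun y hy hyx => hmin y (Finset.mem_filter.mpr ⟨hy, hyx⟩)⟩
  choose! m hmF hmS hmin using hm
  obtain ⟨x, hxF, hxmax⟩ := Finset.exists_max_image F (fun x => (m x).1) hne
  set z0 := m x with hz0
  set t := z0.1 with ht
  have hz0F : z0 ∈ F := hmF x hxF
  have hz0X : z0 ∈ X := hFX hz0F
  -- remove the class of `x`
  set F' := F.filter (fun y => ¬ SameClass X r y x) with hF'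
  have hF'card : F'.card < n := by
    rw [← hF]
    apply Finset.card_lt_card
    rw [Finset.ssubset_iff_of_subset (Finset.filter_subset _ _)]
    refine ⟨x, hxF, fun h => ?_⟩
    exact (Finset.mem_filter.mp h).2 (SameClass.refl (hFX hxF) hr.le)
  obtain ⟨χ', hχ1, hχ2⟩ := ih _ hF'card F' rfl (fun a ha => hFX (Finset.mem_of_mem_filter a ha))
  -- the forbidden colours
  set Bad := F'.filter (fun y => ∃ z ∈ F, SameClass X r z x ∧ Conflict r y z) with hBad
  -- for each bad vertex, a point of its class close to the left end `t`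
  have hrep : ∀ y ∈ Bad, ∃ a ∈ X, SameClass X r a y ∧ dist a z0 < 2 ^ 4 * (r / 2) := by
    intro y hy
    obtain ⟨hyF', z, hzF, hzx, hconf⟩ := Finset.mem_filter.mp hy
    have hyF : y ∈ F := Finset.mem_of_mem_filter y hyF'
    have hm1 : (m y).1 ≤ t := hxmax y hyF
    have hm2 : t ≤ z.1 := hmin x hxF z hzF hzx
    have hm3 : z.1 - r ≤ y.1 := by
      have := (abs_le.mp hconf.2.2).2
      have h' := (abs_le.mp hconf.2.2).1
      linarith
    -- a point between the left end of `y`'s class and `y`, close to `t`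
    obtain ⟨t', ht', ht'd⟩ : ∃ t' ∈ Set.uIcc (m y).1 y.1, |t' - t| ≤ r := by
      by_cases hyt : t ≤ y.1
      · exact ⟨t, Set.mem_uIcc.mpr (Or.inl ⟨hm1, hyt⟩), by simpa using hr.le⟩
      · push Not at hyt
        refine ⟨y.1, Set.right_mem_uIcc, ?_⟩
        rw [abs_of_nonpos (by linarith)]
        linarith
    have hmy : SameClass X r (m y) y := hmS y hyF
    obtain ⟨a, haX, ha1, ha2⟩ := hmy.hull ht'
    have hay : SameClass X r a y := ha1.trans hmy
    refine ⟨a, haX, hay, ?_⟩
    have hU : dist a.2 z0.2 ≤ 4 * r := by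
      have h1 : dist a.2 y.2 ≤ 4 * r := hay.1.trans (by linarith)
      have h2 : dist y.2 z.2 ≤ 4 * r := hconf.2.1
      have h3 : dist z.2 x.2 ≤ 4 * r := hzx.1.trans (by linarith)
      have h4 : dist x.2 z0.2 ≤ 4 * r := by
        rw [dist_comm]; exact (hmS x hxF).1.trans (by linarith)
      exact ultra _ _ _ (ultra _ _ _ h1 h2) (ultra _ _ _ h3 h4)
    have hP : dist a.1 z0.1 ≤ 4 * r := by
      rw [Real.dist_eq]
      have h5 : |a.1 - z0.1| ≤ |a.1 - t'| + |t' - t| := by
        rw [ht]; exact abs_sub_le _ _ _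
      linarith
    rw [Prod.dist_eq]
    have : max (dist a.1 z0.1) (dist a.2 z0.2) ≤ 4 * r := max_le hP hU
    have h6 : (2 : ℝ) ^ 4 * (r / 2) = 8 * r := by ring
    rw [h6]
    linarith
  choose! rep hrepX hrepS hrepd using hrep
  -- count the colours used on `Bad`
  have hcount : (Bad.image χ').card + 1 ≤ lam ^ 4 := by
    -- choose one vertex for each colour
    have hch : ∀ b ∈ Bad.image χ', ∃ y ∈ Bad, χ' y = b := fun b hb => by
      obtain ⟨y, hy, h⟩ := Finset.mem_image.mp hb
      exact ⟨y, hy, h⟩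
    have : Nonempty (ℝ × U) := ⟨z0⟩
    choose! v hvB hvc using hch
    set S := insert z0 ((Bad.image χ').image (fun b => rep (v b))) with hS
    have hnotz0 : ∀ b ∈ Bad.image χ', ¬ SameClass X r (rep (v b)) z0 := by
      intro b hb h
      have hvb := hvB b hb
      have h1 : SameClass X r (v b) x :=
        ((hrepS _ hvb).symm.trans h).trans (hmS x hxF)
      exact (Finset.mem_filter.mp (Finset.mem_filter.mp hvb).1).2 h1
    have hpair : ∀ b ∈ Bad.image χ', ∀ b' ∈ Bad.image χ', b ≠ b' →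
        ¬ SameClass X r (rep (v b)) (rep (v b')) := by
      intro b hb b' hb' hne h
      apply hne
      have hvb := hvB b hb
      have hvb' := hvB b' hb'
      have h1 : SameClass X r (v b) (v b') :=
        ((hrepS _ hvb).symm.trans h).trans (hrepS _ hvb')
      rw [← hvc b hb, ← hvc b' hb']
      exact hχ1 _ (Finset.mem_filter.mp hvb).1 _ (Finset.mem_filter.mp hvb').1 h1
    have hinj : Set.InjOn (fun b => rep (v b)) (↑(Bad.image χ') : Set (Fin (lam ^ 4 + 1))) := by
      intro b hb b' hb' h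
      by_contra hne
      apply hpair b hb b' hb' hne
      simp only at h
      rw [h]
      exact SameClass.refl (hrepX _ (hvB b' hb')) hr.le
    have hz0notin : z0 ∉ (Bad.image χ').image (fun b => rep (v b)) := by
      intro h
      obtain ⟨b, hb, hbe⟩ := Finset.mem_image.mp h
      apply hnotz0 b hb
      rw [hbe]
      exact SameClass.refl hz0X hr.le
    have hcardS : S.card = (Bad.image χ').card + 1 := by
      rw [hS, Finset.card_insert_of_notMem hz0notin, Finset.card_image_of_injOn hinj]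
    rw [← hcardS]
    have hr2 : 0 ≤ r := hr.le
    apply card_le_of_separated hX hr 4 z0 hz0X S
    · intro a ha
      rcases Finset.mem_insert.mp (Finset.mem_coe.mp ha) with rfl | ha
      · exact hz0X
      · obtain ⟨b, hb, rfl⟩ := Finset.mem_image.mp ha
        exact hrepX _ (hvB b hb)
    · intro a ha
      rcases Finset.mem_insert.mp (Finset.mem_coe.mp ha) with rfl | ha
      · apply mem_ball_self
        positivity
      · obtain ⟨b, hb, rfl⟩ := Finset.mem_image.mp ha
        exact hrepd _ (hvB b hb)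
    · intro a ha c hc hac
      rcases Finset.mem_insert.mp ha with rfl | ha
      · rcases Finset.mem_insert.mp hc with rfl | hc
        · exact absurd rfl hac
        · obtain ⟨b, hb, rfl⟩ := Finset.mem_image.mp hc
          apply SameClass.separated hz0X hr2
          intro h
          exact hnotz0 b hb h.symm
      · obtain ⟨b, hb, rfl⟩ := Finset.mem_image.mp ha
        rcases Finset.mem_insert.mp hc with rfl | hc
        · apply SameClass.separated (hrepX _ (hvB b hb)) hr2
          exact hnotz0 b hb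
        · obtain ⟨b', hb', rfl⟩ := Finset.mem_image.mp hc
          have hne : b ≠ b' := by
            rintro rfl
            exact hac rfl
          exact SameClass.separated (hrepX _ (hvB b hb)) hr2 (hpair b hb b' hb' hne)
  -- a free colour
  have hfree : ∃ a : Fin (lam ^ 4 + 1), a ∉ Bad.image χ' := by
    by_contra hcon
    push Not at hcon
    have h1 : (Finset.univ : Finset (Fin (lam ^ 4 + 1))) ⊆ Bad.image χ' := fun a _ => hcon a
    have h2 := Finset.card_le_card h1
    simp only [Finset.card_univ, Fintype.card_fin] at h2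
    omega
  obtain ⟨a, ha⟩ := hfree
  refine ⟨fun y => if SameClass X r y x then a else χ' y, ?_, ?_⟩
  · intro y hy w hw hyw
    by_cases h1 : SameClass X r y x
    · have h2 : SameClass X r w x := hyw.symm.trans h1
      simp only [h1, h2, if_true]
    · have h2 : ¬ SameClass X r w x := fun h => h1 (hyw.trans h)
      simp only [h1, h2, if_false]
      exact hχ1 y (Finset.mem_filter.mpr ⟨hy, h1⟩) w (Finset.mem_filter.mpr ⟨hw, h2⟩) hyw
  · intro y hy w hw hyw
    by_cases h1 : SameClass X r y x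
    · by_cases h2 : SameClass X r w x
      · exfalso
        have h3 := (h1.trans h2.symm).1
        exact absurd hyw.1 (not_lt.mpr h3)
      · simp only [h1, h2, if_true, if_false]
        intro h3
        apply ha
        rw [h3]
        refine Finset.mem_image_of_mem _ (Finset.mem_filter.mpr ⟨Finset.mem_filter.mpr ⟨hw, h2⟩,
          y, hy, h1, hyw.symm⟩)
    · by_cases h2 : SameClass X r w x
      · simp only [h1, h2, if_true, if_false]
        intro h3
        apply ha
        rw [← h3]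
        exact Finset.mem_image_of_mem _ (Finset.mem_filter.mpr ⟨Finset.mem_filter.mpr ⟨hy, h1⟩,
          w, hw, h2, hyw⟩)
      · simp only [h1, h2, if_false]
        exact hχ2 y (Finset.mem_filter.mpr ⟨hy, h1⟩) w (Finset.mem_filter.mpr ⟨hw, h2⟩) hyw

/-- Compactness: a colouring of all of `X` at one scale. -/
lemma global_colouring {X : Set (ℝ × U)} {lam : ℕ} (hX : IsDoublingSet X lam) {r : ℝ} (hr : 0 < r) :
    ∃ χ : ℝ × U → Fin (lam ^ 4 + 1), (∀ x ∈ X, ∀ y ∈ X, SameClass X r x y → χ x = χ y) ∧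
      (∀ x ∈ X, ∀ y ∈ X, Conflict r x y → χ x ≠ χ y) := by
  classical
  let A : Finset (ℝ × U) → Set (ℝ × U → Fin (lam ^ 4 + 1)) := fun F =>
    {χ | (∀ x ∈ F, ∀ y ∈ F, x ∈ X → y ∈ X → SameClass X r x y → χ x = χ y) ∧
      (∀ x ∈ F, ∀ y ∈ F, x ∈ X → y ∈ X → Conflict r x y → χ x ≠ χ y)}
  have hclosed : ∀ F, IsClosed (A F) := by
    intro F
    have : A F = (⋂ x ∈ F, ⋂ y ∈ F, {χ | x ∈ X → y ∈ X → SameClass X r x y → χ x = χ y}) ∩
        (⋂ x ∈ F, ⋂ y ∈ F, {χ | x ∈ X → y ∈ X → Conflict r x y → χ x ≠ χ y}) := by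
      ext χ
      simp only [A, Set.mem_ofPred_eq, Set.mem_inter_iff, Set.mem_iInter]
    rw [this]
    apply IsClosed.inter
    · refine isClosed_biInter fun x _ => isClosed_biInter fun y _ => ?_
      by_cases h : x ∈ X ∧ y ∈ X ∧ SameClass X r x y
      · have : {χ : ℝ × U → Fin (lam ^ 4 + 1) | x ∈ X → y ∈ X → SameClass X r x y → χ x = χ y} =
            {χ | χ x = χ y} := by
          ext χ
          simp [h.1, h.2.1, h.2.2]
        rw [this]
        exact isClosed_eq (continuous_apply x) (continuous_apply y)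
      · have : {χ : ℝ × U → Fin (lam ^ 4 + 1) | x ∈ X → y ∈ X → SameClass X r x y → χ x = χ y} =
            Set.univ := by
          ext χ
          simp only [Set.mem_ofPred_eq, Set.mem_univ, iff_true]
          intro h1 h2 h3
          exact absurd ⟨h1, h2, h3⟩ h
        rw [this]
        exact isClosed_univ
    · refine isClosed_biInter fun x _ => isClosed_biInter fun y _ => ?_
      by_cases h : x ∈ X ∧ y ∈ X ∧ Conflict r x y
      · have : {χ : ℝ × U → Fin (lam ^ 4 + 1) | x ∈ X → y ∈ X → Conflict r x y → χ x ≠ χ y} =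
            (fun χ : ℝ × U → Fin (lam ^ 4 + 1) => (χ x, χ y)) ⁻¹' {q | q.1 ≠ q.2} := by
          ext χ
          simp [h.1, h.2.1, h.2.2]
        rw [this]
        exact IsClosed.preimage ((continuous_apply x).prodMk (continuous_apply y)) (isClosed_discrete _)
      · have : {χ : ℝ × U → Fin (lam ^ 4 + 1) | x ∈ X → y ∈ X → Conflict r x y → χ x ≠ χ y} =
            Set.univ := by
          ext χ
          simp only [Set.mem_ofPred_eq, Set.mem_univ, iff_true]
          intro h1 h2 h3
          exact absurd ⟨h1, h2, h3⟩ h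
        rw [this]
        exact isClosed_univ
  have hne : ∀ F, (A F).Nonempty := by
    intro F
    obtain ⟨χ, h1, h2⟩ := finite_colouring hX hr _ (F.filter (· ∈ X)) rfl
      (fun a ha => (Finset.mem_filter.mp ha).2)
    refine ⟨χ, fun x hx y hy hxX hyX h => h1 x (Finset.mem_filter.mpr ⟨hx, hxX⟩) y
      (Finset.mem_filter.mpr ⟨hy, hyX⟩) h, fun x hx y hy hxX hyX h => h2 x
      (Finset.mem_filter.mpr ⟨hx, hxX⟩) y (Finset.mem_filter.mpr ⟨hy, hyX⟩) h⟩
  have hdir : Directed (fun s t => s ⊇ t) A := by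
    intro F G
    refine ⟨F ∪ G, ?_, ?_⟩
    · intro χ hχ
      exact ⟨fun x hx y hy => hχ.1 x (Finset.mem_union_left _ hx) y (Finset.mem_union_left _ hy),
        fun x hx y hy => hχ.2 x (Finset.mem_union_left _ hx) y (Finset.mem_union_left _ hy)⟩
    · intro χ hχ
      exact ⟨fun x hx y hy => hχ.1 x (Finset.mem_union_right _ hx) y (Finset.mem_union_right _ hy),
        fun x hx y hy => hχ.2 x (Finset.mem_union_right _ hx) y (Finset.mem_union_right _ hy)⟩
  obtain ⟨χ, hχ⟩ := IsCompact.nonempty_iInter_of_directed_nonempty_isCompact_isClosed A hdir hne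
    (fun F => (hclosed F).isCompact) hclosed
  rw [Set.mem_iInter] at hχ
  refine ⟨χ, fun x hx y hy h => ?_, fun x hx y hy h => ?_⟩
  · exact (hχ {x, y}).1 x (by simp) y (by simp) hx hy h
  · exact (hχ {x, y}).2 x (by simp) y (by simp) hx hy h

/-- A bi-infinite geometric sum vanishing from `J` on. -/
lemma tsum_geom_bound {E : Type*} [NormedAddCommGroup E] [CompleteSpace E] (f : ℤ → E) (J : ℤ)
    (C : ℝ) (h0 : ∀ j, J ≤ j → f j = 0) (hb : ∀ j, j < J → ‖f j‖ ≤ C * 4 ^ j) :
    Summable f ∧ ‖∑' j, f j‖ ≤ C * 4 ^ J / 3 := by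
  let g : ℕ → ℤ := fun n => J - 1 - n
  have hg : Function.Injective g := by
    intro a b h
    simp only [g] at h
    omega
  have hsupp : Function.support f ⊆ Set.range g := by
    intro j hj
    by_cases hjJ : J ≤ j
    · exact absurd (h0 j hjJ) hj
    · refine ⟨(J - 1 - j).toNat, ?_⟩
      simp only [g]
      omega
  have hnorm : ∀ n : ℕ, ‖f (g n)‖ ≤ (C * 4 ^ (J - 1)) * (1 / 4 : ℝ) ^ n := by
    intro n
    have h1 : g n < J := by
      simp only [g]
      omega
    refine (hb _ h1).trans (le_of_eq ?_)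
    simp only [g]
    have h2 : (J - 1 - (n : ℤ)) = (J - 1) + (-(n : ℤ)) := by ring
    rw [h2, zpow_add₀ (by norm_num : (4 : ℝ) ≠ 0), zpow_neg, zpow_natCast, one_div, inv_pow]
    ring
  have hgeo : HasSum (fun n : ℕ => (C * 4 ^ (J - 1)) * (1 / 4 : ℝ) ^ n)
      ((C * 4 ^ (J - 1)) * (1 - 1 / 4)⁻¹) :=
    (hasSum_geometric_of_lt_one (by norm_num) (by norm_num)).mul_left _
  have hsum' : Summable (f ∘ g) := Summable.of_norm_bounded hgeo.summable hnorm
  have hsum : Summable f := (hg.summable_iff (fun j hj => by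
    by_contra h
    exact hj (hsupp h))).mp hsum'
  refine ⟨hsum, ?_⟩
  rw [← hg.tsum_eq hsupp]
  refine (tsum_of_norm_bounded hgeo hnorm).trans (le_of_eq ?_)
  have h3 : (4 : ℝ) ^ J = 4 ^ (J - 1) * 4 := by
    rw [zpow_sub₀ (by norm_num : (4 : ℝ) ≠ 0), zpow_one]
    field_simp
  rw [h3]
  norm_num
  ring

lemma exists_zpow_ge (d : ℝ) (hd : 0 ≤ d) : ∃ J : ℤ, d ≤ (4 : ℝ) ^ J := by
  obtain ⟨J, -, hJ⟩ := exists_mem_Ioc_zpow (x := d + 1) (y := (4 : ℝ)) (by linarith) (by norm_num)
  exact ⟨J + 1, by linarith⟩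

lemma sq_facts {a b c : ℝ} (ha : 0 ≤ a) (hb : 0 ≤ b) (hc : 0 ≤ c) (h : c ^ 2 = a ^ 2 + b ^ 2) :
    a ≤ c ∧ b ≤ c ∧ c ≤ a + b := by
  refine ⟨?_, ?_, ?_⟩
  · by_contra hlt
    push Not at hlt
    nlinarith [sq_nonneg b]
  · by_contra hlt
    push Not at hlt
    nlinarith [sq_nonneg a]
  · by_contra hlt
    push Not at hlt
    nlinarith [mul_nonneg ha hb]

/-- **Main theorem.**  Let `U` be an ultrametric space and let `X ⊆ ℝ × U` (with the maximum metric)
have doubling constant at most `lam`.  Then `X` embeds into the Euclidean space of dimension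
`lam ^ 4 + 2` with distortion at most `48`. -/
theorem result (lam : ℕ) {U : Type*} [MetricSpace U] [IsUltrametricDist U] (X : Set (ℝ × U))
    (hX : IsDoublingSet X lam) :
    ∃ f : ℝ × U → EuclideanSpace ℝ (Fin (lam ^ 4 + 2)), ∀ x ∈ X, ∀ y ∈ X,
      (1 / 12) * dist x y ≤ ‖f x - f y‖ ∧ ‖f x - f y‖ ≤ 4 * dist x y := by
  classical
  rcases X.eq_empty_or_nonempty with rfl | ⟨x₀, hx₀⟩
  · exact ⟨0, by simp⟩
  have hpos : ∀ j : ℤ, (0 : ℝ) < 4 ^ j := fun j => by positivity
  choose χ hχ1 hχ2 using fun j : ℤ => global_colouring hX (r := (4 : ℝ) ^ j) (hpos j)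
  let e : Fin (lam ^ 4 + 1) → EuclideanSpace ℝ (Fin (lam ^ 4 + 1)) :=
    fun i => EuclideanSpace.single i (1 : ℝ)
  have he2 : ∀ a b, ‖e a - e b‖ ≤ 2 := by
    intro a b
    refine (norm_sub_le _ _).trans ?_
    have h1 : ∀ c, ‖e c‖ = 1 := fun c => by simp [e]
    rw [h1, h1]
    norm_num
  have he1 : ∀ a b, a ≠ b → 1 ≤ ‖e a - e b‖ := by
    intro a b hab
    have h := PiLp.norm_apply_le (e a - e b) a
    have h2 : (e a - e b).ofLp a = 1 := by
      simp [e, hab.symm]
    rw [h2] at h
    simpa using h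
  -- the difference terms
  let D : ℝ × U → ℝ × U → ℤ → EuclideanSpace ℝ (Fin (lam ^ 4 + 1)) := fun x y j => (4 : ℝ) ^ j • (e (χ j x) - e (χ j y))
  have hD2 : ∀ x y j, ‖D x y j‖ ≤ 2 * 4 ^ j := by
    intro x y j
    simp only [D, norm_smul, Real.norm_eq_abs, abs_of_pos (hpos j)]
    nlinarith [he2 (χ j x) (χ j y), hpos j]
  have hD0 : ∀ x ∈ X, ∀ y ∈ X, ∀ j : ℤ, dist x y ≤ 4 ^ j → D x y j = 0 := by
    intro x hx y hy j hj
    have h1 : SameClass X ((4 : ℝ) ^ j) x y := by
      apply SameClass.of_close hx ((le_max_right _ _).trans hj) _ (hpos j).le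
      have := (le_max_left (dist x.1 y.1) (dist x.2 y.2)).trans hj
      rwa [Real.dist_eq] at this
    simp only [D, hχ1 j x hx y hy h1, sub_self, smul_zero]
  have hDsum : ∀ x ∈ X, ∀ y ∈ X, Summable (D x y) := by
    intro x hx y hy
    obtain ⟨J, hJ⟩ := exists_zpow_ge (dist x y) dist_nonneg
    refine (tsum_geom_bound (D x y) J 2 (fun j hj => hD0 x hx y hy j ?_)
      (fun j _ => hD2 x y j)).1
    exact hJ.trans (zpow_le_zpow_right₀ (by norm_num) hj)
  let V : ℝ × U → EuclideanSpace ℝ (Fin (lam ^ 4 + 1)) := fun x => ∑' j, D x x₀ j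
  have hV : ∀ x ∈ X, ∀ y ∈ X, V x - V y = ∑' j, D x y j := by
    intro x hx y hy
    simp only [V]
    rw [← (hDsum x hx x₀ hx₀).tsum_sub (hDsum y hy x₀ hx₀)]
    congr 1
    ext1 j
    simp only [D]
    rw [← smul_sub, sub_sub_sub_cancel_right]
  -- upper bound
  have hup : ∀ x ∈ X, ∀ y ∈ X, ‖V x - V y‖ ≤ 8 / 3 * dist x y := by
    intro x hx y hy
    rw [hV x hx y hy]
    rcases (dist_nonneg (x := x) (y := y)).eq_or_lt with h0 | h0
    · have hxy : x = y := dist_eq_zero.mp h0.symm
      subst hxy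
      have : ∀ j, D x x j = 0 := fun j => by simp [D]
      simp [this]
    · obtain ⟨J, hJ1, hJ2⟩ := exists_mem_Ioc_zpow (x := dist x y) (y := (4 : ℝ)) h0 (by norm_num)
      have h1 := (tsum_geom_bound (D x y) (J + 1) 2 (fun j hj => hD0 x hx y hy j
        (hJ2.trans (zpow_le_zpow_right₀ (by norm_num) hj))) (fun j _ => hD2 x y j)).2
      refine h1.trans ?_
      have h2 : (4 : ℝ) ^ (J + 1) = 4 ^ J * 4 := by
        rw [zpow_add₀ (by norm_num : (4 : ℝ) ≠ 0), zpow_one]
      rw [h2]
      linarith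
  -- lower bound
  have hlow : ∀ x ∈ X, ∀ y ∈ X, |x.1 - y.1| < dist x.2 y.2 →
      1 / 12 * dist x y ≤ max |x.1 - y.1| ‖V x - V y‖ := by
    intro x hx y hy hlt
    have hd : dist x y = dist x.2 y.2 := by
      rw [Prod.dist_eq, Real.dist_eq]
      exact max_eq_right hlt.le
    have h0 : 0 < dist x.2 y.2 := lt_of_le_of_lt (abs_nonneg _) hlt
    obtain ⟨J, hJ1, hJ2⟩ := exists_mem_Ioc_zpow (x := dist x.2 y.2) (y := (4 : ℝ)) h0 (by norm_num)
    have h4 : (4 : ℝ) ^ (J + 1) = 4 * 4 ^ J := by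
      rw [zpow_add₀ (by norm_num : (4 : ℝ) ≠ 0), zpow_one]
      ring
    rw [h4] at hJ2
    by_cases hfar : (4 : ℝ) ^ J < |x.1 - y.1|
    · apply le_max_of_le_left
      rw [hd]
      linarith [hpos J]
    · push Not at hfar
      apply le_max_of_le_right
      have hconf : Conflict ((4 : ℝ) ^ J) x y := ⟨hJ1, hJ2, hfar⟩
      have hne := hχ2 J x hx y hy hconf
      have hmain : (4 : ℝ) ^ J ≤ ‖D x y J‖ := by
        simp only [D, norm_smul, Real.norm_eq_abs, abs_of_pos (hpos J)]
        nlinarith [he1 _ _ hne, hpos J]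
      let D' : ℤ → EuclideanSpace ℝ (Fin (lam ^ 4 + 1)) := fun j => if j = J then 0 else D x y j
      have hD' := tsum_geom_bound D' J 2 (by
        intro j hj
        by_cases hjJ : j = J
        · simp [D', hjJ]
        · simp only [D', hjJ, if_false]
          apply hD0 x hx y hy j
          rw [hd]
          have hJj : J + 1 ≤ j := by omega
          refine hJ2.trans ?_
          rw [← h4]
          exact zpow_le_zpow_right₀ (by norm_num) hJj) (by
        intro j hj
        have hjJ : j ≠ J := by omega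
        simp only [D', hjJ, if_false]
        exact hD2 x y j)
      have hsplit := (hDsum x hx y hy).tsum_eq_add_tsum_ite J
      rw [hV x hx y hy, hsplit, hd]
      have h5 : ‖D x y J‖ - ‖∑' j, D' j‖ ≤ ‖D x y J + ∑' n, if n = J then 0 else D x y n‖ := by
        have := norm_sub_norm_le (D x y J) (-∑' j, D' j)
        rw [norm_neg, sub_neg_eq_add] at this
        exact this
      refine le_trans ?_ h5
      have h6 := hD'.2
      nlinarith [hpos J]
  -- assemble
  let G : ℝ × U → EuclideanSpace ℝ (Fin (lam ^ 4 + 2)) := fun x =>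
    WithLp.toLp 2 (Fin.cons x.1 (fun i => (V x).ofLp i))
  have hG : ∀ x y, ‖G x - G y‖ ^ 2 = |x.1 - y.1| ^ 2 + ‖V x - V y‖ ^ 2 := by
    intro x y
    rw [EuclideanSpace.norm_sq_eq, EuclideanSpace.norm_sq_eq, Fin.sum_univ_succ]
    simp [G, sq_abs]
  refine ⟨G, fun x hx y hy => ?_⟩
  obtain ⟨h1, h2, h3⟩ := sq_facts (abs_nonneg (x.1 - y.1)) (norm_nonneg (V x - V y))
    (norm_nonneg (G x - G y)) (hG x y)
  have hΔ : |x.1 - y.1| ≤ dist x y := by
    have := le_max_left (dist x.1 y.1) (dist x.2 y.2)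
    rwa [← Prod.dist_eq, Real.dist_eq] at this
  have hd0 : 0 ≤ dist x y := dist_nonneg
  refine ⟨?_, ?_⟩
  · by_cases hlt : |x.1 - y.1| < dist x.2 y.2
    · have := hlow x hx y hy hlt
      exact this.trans (max_le h1 h2)
    · push Not at hlt
      have hd : dist x y = |x.1 - y.1| := by
        rw [Prod.dist_eq, Real.dist_eq]
        exact max_eq_left hlt
      rw [hd] at hd0 ⊢
      linarith [abs_nonneg (x.1 - y.1)]
  · linarith [hup x hx y hy]

end Vale.Agent.Results.P208.LineTimesUltrametric
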